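import Vale.Agent.P116C.Defs

/-! The area formula with signed multiplicity. -/

open Complex MeasureTheory Filter Set Metric
open scoped Topology ComplexConjugate ContDiff

noncomputable section

namespace Vale.P116C

theorem jac_eq_det (k : ℂ → ℂ) (z : ℂ) : jac k z = (fderiv ℝ k z).det := sorry

/-- Proof.  Every point of `U` with `jac ≠ 0` has an open neighbourhood in `U` on which `g` is
injective (inverse function theorem) and `jac` has a constant sign; take countably many
(Lindelöf), make them disjoint, intersect with `A`: pieces `A i` with signs `σ i`.  Put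
`N = ∑' i, σ i * indicator (g '' A i) 1`; use `integral_image_eq_integral_abs_det_fderiv_smul`,
`lintegral_abs_det_fderiv_eq_addHaar_image`, `measurable_image_of_fderivWithin`.  The sum of the
measures of the images is finite, so almost every point lies in finitely many images. -/
theorem area {g : ℂ → ℂ} {U A : Set ℂ} (hU : IsOpen U) (hg : ContDiffOn ℝ 1 g U)
    (hA : MeasurableSet A) (hAU : A ⊆ U) (hJ : IntegrableOn (jac g) A) :
    ∃ N : ℂ → ℝ, Integrable N ∧ (∀ᵐ w, ∃ n : ℤ, N w = n) ∧ ∀ ψ : ℂ → ℝ, Continuous ψ →
      (∃ M, ∀ w, |ψ w| ≤ M) → ∫ z in A, ψ (g z) * jac g z = ∫ w, ψ w * N w := sorry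

end Vale.P116C
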