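import Vale.Agent.P116C.Defs

/-! Cutoff functions at the ends. -/

open Complex MeasureTheory Filter Set Metric
open scoped Topology ComplexConjugate ContDiff

noncomputable section

namespace Vale.P116C

variable {Y : Type} {K : Set ℂ} {π : ℂ → Y}

/-- Proof.  If no point of `K` has label `y` take `χ = 0` and `v` the indicator of `y`.  Otherwise
the component `C` of such a point is the intersection of the relatively clopen subsets of `K`
containing it (`connectedComponent_eq_iInter_isClopen`), so by compactness there is a clopen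
`U n ⊇ C` inside `thickening (1 / (n + 1)) C`.  `U n` is a union of components; take `χ n` smooth,
`1` near `U n`, with compact support in that thickening and disjoint from `K \ U n`, and
`v n y' = 1` iff `y' = π z` for some `z ∈ U n`. -/
theorem exists_cut (hK : IsCompact K) (he : Ends K π) (y : Y) :
    ∃ (χ : ℕ → ℂ → ℝ) (v : ℕ → Y → ℝ), (∀ n, Wired K π (χ n) (v n) ∧ HasCompactSupport (χ n) ∧
      v n y = 1 ∧ ∀ y', v n y' = 0 ∨ v n y' = 1) ∧ (∀ y' ≠ y, ∀ᶠ n in atTop, v n y' = 0) ∧
      ∀ z ∉ K, ∀ᶠ n in atTop, z ∉ tsupport (χ n) := sorry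

theorem exists_cutK (hK : IsCompact K) (π : ℂ → Y) {T : ℝ} (hT : K ⊆ ball 0 T) :
    ∃ χ, Wired K π χ (fun _ => 1) ∧ HasCompactSupport χ ∧ tsupport χ ⊆ ball 0 T := sorry

/-- multiply `k` by a smooth function that vanishes near `K` and is `1` near `R` -/
theorem exists_fill (hK : IsClosed K) {k : ℂ → ℂ} (hk : ContDiffOn ℝ 2 k Kᶜ) {R : Set ℂ}
    (hR : IsClosed R) (hRK : R ⊆ Kᶜ) : ∃ g, ContDiff ℝ 2 g ∧ ∀ z ∈ R, g =ᶠ[𝓝 z] k := sorry

end Vale.P116C
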