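import Mathlib

/-! The circle picture: notions. -/

open Complex MeasureTheory Filter Set Metric
open scoped Topology ComplexConjugate ContDiff

noncomputable section

namespace Vale.P116C

/-- the mixed Jacobian -/
def bd (h k : ℂ → ℂ) (z : ℂ) : ℝ :=
  (conj (fderiv ℝ h z 1) * fderiv ℝ k z I - conj (fderiv ℝ h z I) * fderiv ℝ k z 1).im

/-- the Jacobian -/
def jac (k : ℂ → ℂ) (z : ℂ) : ℝ := (conj (fderiv ℝ k z 1) * fderiv ℝ k z I).im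

/-- the divergence -/
def dv (Θ : ℂ → ℂ) (w : ℂ) : ℝ := (fderiv ℝ Θ w 1).re + (fderiv ℝ Θ w I).im

/-- smooth Lipschitz vector fields -/
def Tst (Θ : ℂ → ℂ) : Prop := ContDiff ℝ ∞ Θ ∧ ∃ C, LipschitzWith C Θ

/-- `π` labels the components of `K` -/
def Ends {Y : Type} (K : Set ℂ) (π : ℂ → Y) : Prop :=
  ∀ z ∈ K, ∀ w ∈ K, π z = π w ↔ w ∈ connectedComponentIn K z

/-- smooth functions that are locally constant near `K` and near infinity -/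
structure Wired {Y : Type} (K : Set ℂ) (π : ℂ → Y) (χ : ℂ → ℝ) (v : Y → ℝ) : Prop where
  sm : ContDiff ℝ ∞ χ
  inf : ∃ c, ∀ᶠ z in cocompact ℂ, χ z = c
  loc : ∀ z ∈ K, ∀ᶠ w in 𝓝 z, χ w = v (π z)
  bdd : ∃ M, ∀ y, |v y| ≤ M

/-- the pairing with `k` lives on the ends -/
def Hyp {Y : Type} (K : Set ℂ) (π : ℂ → Y) (k : ℂ → ℂ) (L : Y → ℝ) (c : Y → ℂ) (r : Y → ℝ) :
    Prop :=
  ∀ χ v, Wired K π χ v → ∀ Θ, Tst Θ → ∀ ρ : Y → ℝ, (∀ y, 0 ≤ ρ y) → (Summable fun y => ρ y ^ 2) →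
    (∀ y, ∃ a, ∀ w ∈ closedBall (c y) (r y), ‖Θ w - a‖ ≤ ρ y) →
    |∫ z in Kᶜ, bd (fun z => χ z • Θ (k z)) k z| ≤ ∑' y, |v y| * (L y * ρ y)

/-- the data of a picture -/
structure Dat {Y : Type} (K : Set ℂ) (π : ℂ → Y) (k : ℂ → ℂ) (L : Y → ℝ) (c : Y → ℂ)
    (r : Y → ℝ) : Prop where
  cpt : IsCompact K
  ends : Ends K π
  sm : ContDiffOn ℝ 2 k Kᶜ
  fin : IntegrableOn (fun z => ‖fderiv ℝ k z‖ ^ 2) Kᶜ
  L0 : ∀ y, 0 ≤ L y
  r0 : ∀ y, 0 ≤ r y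
  L2 : Summable fun y => L y ^ 2
  r2 : Summable fun y => r y ^ 2
  hyp : Hyp K π k L c r

/-- restriction to a disc -/
def res (c : ℂ) (r : ℝ) (Θ : ℂ → ℂ) (h : Continuous Θ) : C(closedBall c r, ℂ) :=
  ⟨fun w => Θ w, h.comp continuous_subtype_val⟩

end Vale.P116C
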