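import Vale.Agent.P116C.Defs

/-! Behaviour at infinity. -/

open Complex MeasureTheory Filter Set Metric
open scoped Topology ComplexConjugate ContDiff

noncomputable section

namespace Vale.P116C

/-- Proof.  `‖k' z‖² ≤ π⁻¹ ∫ over ball z 1 of ‖k'‖²` (mean value property), so `k' → 0`, hence
`k z / z → 0` (mean value inequality along rays), `u ↦ k u⁻¹` has a removable singularity at `0`
(`Complex.differentiableOn_update_limUnder_of_isLittleO`). -/
theorem exists_lim_inf {k : ℂ → ℂ} {T : ℝ} (hk : DifferentiableOn ℂ k (closedBall 0 T)ᶜ)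
    (h2 : IntegrableOn (fun z => ‖deriv k z‖ ^ 2) (closedBall 0 T)ᶜ) :
    ∃ a, Tendsto k (cocompact ℂ) (𝓝 a) := sorry

/-- Cauchy estimate on unit discs -/
theorem deriv_tendsto_inf {k : ℂ → ℂ} {K : Set ℂ} (hK : IsCompact K)
    (hk : DifferentiableOn ℂ k Kᶜ) {a : ℂ} (h : Tendsto k (cocompact ℂ) (𝓝 a)) :
    Tendsto (deriv k) (cocompact ℂ) (𝓝 0) := sorry

end Vale.P116C
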