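import Vale.Agent.P116C.Defs

/-! The penalised minimisation. -/

open Complex MeasureTheory Filter Set Metric
open scoped Topology ComplexConjugate ContDiff

noncomputable section

namespace Vale.P116C

open scoped InnerProductSpace

/-- Proof.  For `t > 0` minimise
`Φ t (a, b, r) = ‖a‖² + t ‖b + β‖² + 2 ⟪b, β⟫ + ‖β‖² + π ‖r‖²` on `C` (strongly convex: a
minimising sequence is Cauchy by the parallelogram law; or project in `WithLp 2` after rescaling).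
Since `C` is a convex cone the minimiser `(a, b, R)` satisfies, with `c = b + β`,
`0 ≤ ⟪a', a⟫ + ⟪b', t • c + β⟫ + π ⟪r', R⟫` on `C` with equality at `(a, b, R)`.  `iso` then gives
`t ‖c‖² + ⟪c, β⟫ ≤ 0`, so `‖c‖ ≤ ‖β‖ / t` and `min Φ t = (1 + t) ⟪c, β⟫ ≤ 0`.  The minima increase
with `t` and are bounded, and `Φ s (x t) ≤ Φ t (x t)` for `s ≤ t`, so the minimisers
`x 1, x 2, …` are Cauchy (`Φ s x - Φ s (x s) ≥ ‖x - x s‖²` componentwise for `s ≥ 1`). -/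
theorem hil {A B S : Type} [NormedAddCommGroup A] [InnerProductSpace ℝ A] [CompleteSpace A]
    [NormedAddCommGroup B] [InnerProductSpace ℝ B] [CompleteSpace B]
    [NormedAddCommGroup S] [InnerProductSpace ℝ S] [CompleteSpace S]
    {C : Set (A × B × S)} (hc : IsClosed C) (h0 : 0 ∈ C) (ha : ∀ x ∈ C, ∀ y ∈ C, x + y ∈ C)
    (hs : ∀ t : ℝ, 0 ≤ t → ∀ x ∈ C, t • x ∈ C) (β : B)
    (iso : ∀ t : ℝ, 1 ≤ t → ∀ x ∈ C, (∀ y ∈ C, 0 ≤ ⟪y.1, x.1⟫_ℝ + ⟪y.2.1, t • (x.2.1 + β) + β⟫_ℝ +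
      Real.pi * ⟪y.2.2, x.2.2⟫_ℝ) →
      ‖t • (x.2.1 + β) + β‖ ^ 2 - ‖x.1‖ ^ 2 ≤ Real.pi * ‖x.2.2‖ ^ 2) :
    ∃ x ∈ C, x.2.1 = -β ∧ Real.pi * ‖x.2.2‖ ^ 2 ≤ ‖β‖ ^ 2 - ‖x.1‖ ^ 2 := sorry

end Vale.P116C
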