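import Vale.Agent.P116C.Defs

/-! The sharp Sobolev inequality in the plane. -/

open Complex MeasureTheory Filter Set Metric
open scoped Topology ComplexConjugate ContDiff

noncomputable section

namespace Vale.P116C

/-- Proof (Topping).  For `δ > 0`, `s = ‖w‖ ^ 2`, put `W w = w ^ 2 / (4 π (s + δ²))` (norm at most
`1 / (4 π)`), `E w = w (s + 2 δ²) / (2 π (s + δ²) ^ 2)`, `η w = 2 δ ^ 4 / (π (s + δ²) ^ 3)`.
Then `dv E = η`, `dv (conj e * W) = (conj e * E).re`, `∫ η = 1`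
(`integral_fun_norm_addHaar`), and `∫ m * dv Θ = - ∫ (conj μ * Θ).re` with
`μ = m_x + i m_y`, `‖μ‖ = ‖fderiv m‖`.  Two integrations by parts give
`∬ m z * m ζ * η (z - ζ) ≤ (∫ ‖μ‖) ^ 2 / (4 π)`; let `δ → 0` (rescale, dominated convergence). -/
theorem topping {m : ℂ → ℝ} (hm : ContDiff ℝ 1 m) (hc : HasCompactSupport m) :
    ∫ z, m z ^ 2 ≤ (∫ z, ‖fderiv ℝ m z‖) ^ 2 / (4 * Real.pi) := sorry

end Vale.P116C
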